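import Mathlib
import Vale.Agent.P243.Main

open MeasureTheory Set

namespace Vale.Agent.Results.P243.Tetrahedron

/-- A convex body: compact, convex, nonempty interior. -/
def IsConvexBody (K : Set (EuclideanSpace ℝ (Fin 3))) : Prop :=
  Convex ℝ K ∧ IsCompact K ∧ (interior K).Nonempty

/-- Euclidean area of the orthogonal projection of `K` onto the plane orthogonal to `u`. -/
noncomputable def projArea (K : Set (EuclideanSpace ℝ (Fin 3))) (u : EuclideanSpace ℝ (Fin 3)) :
    ENNReal :=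
  Measure.euclideanHausdorffMeasure 2 ((Submodule.span ℝ {u})ᗮ.starProjection '' K)

/-- The smallest area of an orthogonal projection of `K` onto a plane. -/
noncomputable def minProjArea (K : Set (EuclideanSpace ℝ (Fin 3))) : ENNReal :=
  ⨅ u : {u : EuclideanSpace ℝ (Fin 3) // ‖u‖ = 1}, projArea K u.1

/-- The cylinders `B i + ℝ (u i)` have unit axes, measurable bases of finite area lying in the
planes orthogonal to the axes, and cover `K`. -/
def IsCylinderCover (K : Set (EuclideanSpace ℝ (Fin 3))) (m : ℕ)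
    (u : Fin m → EuclideanSpace ℝ (Fin 3)) (B : Fin m → Set (EuclideanSpace ℝ (Fin 3))) : Prop :=
  (∀ i, ‖u i‖ = 1 ∧ (∀ b ∈ B i, inner ℝ b (u i) = 0) ∧ MeasurableSet (B i) ∧
    Measure.euclideanHausdorffMeasure 2 (B i) < ⊤) ∧
  ∀ x ∈ K, ∃ i, ∃ b ∈ B i, ∃ t : ℝ, x = b + t • u i

theorem tetra (p : Fin 4 → EuclideanSpace ℝ (Fin 3)) (hp : AffineIndependent ℝ p) :
    IsConvexBody (convexHull ℝ (range p)) ∧
    (∀ v, ‖v‖ = 1 → projArea (convexHull ℝ (range p)) v < ⊤) ∧
    ∃ (m : ℕ) (u : Fin m → EuclideanSpace ℝ (Fin 3))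
      (B : Fin m → Set (EuclideanSpace ℝ (Fin 3))),
      IsCylinderCover (convexHull ℝ (range p)) m u B ∧ (∀ i, IsCompact (B i)) ∧
      ∑ i, Measure.euclideanHausdorffMeasure 2 (B i) / projArea (convexHull ℝ (range p)) (u i)
        ≤ ENNReal.ofReal (1 / 2 - 1 / 10 ^ 6) ∧
      ((∀ i j k l, i ≠ j → k ≠ l → dist (p i) (p j) = dist (p k) (p l)) →
        ∑ i, Measure.euclideanHausdorffMeasure 2 (B i)
          ≤ ENNReal.ofReal (1 / 2 - 1 / 10 ^ 6) * minProjArea (convexHull ℝ (range p)) ∧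
        ∑ i, Measure.euclideanHausdorffMeasure 2 (B i)
          < 1 / 2 * minProjArea (convexHull ℝ (range p))) := by
  refine ⟨⟨convex_convexHull ℝ _, (finite_range p).isCompact_convexHull ℝ,
    Vale.Agent.P243.interior_nonempty p hp⟩,
    fun v hv => Vale.Agent.P243.proj_lt_top _ ((finite_range p).isCompact_convexHull ℝ) v hv, ?_⟩
  obtain ⟨m, u, B, h1, h2, h3, h4⟩ := Vale.Agent.P243.main_fin p hp
  refine ⟨m, u, B, ⟨fun i => ⟨(h1 i).1, fun b hb => ?_, (h1 i).2.2.1.measurableSet,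
    (h1 i).2.2.2⟩, fun x hx => mem_iUnion.1 (h2 hx)⟩, fun i => (h1 i).2.2.1, h3, fun hreg => ?_⟩
  · exact Submodule.mem_orthogonal_singleton_iff_inner_left.1 ((h1 i).2.1 hb)
  · obtain ⟨X, hX, h5, h6⟩ := h4 hreg
    have h7 : ENNReal.ofReal X ≤ minProjArea (convexHull ℝ (range p)) :=
      le_iInf fun v => h6 v.1 v.2
    constructor
    · refine le_trans h5 ?_
      rw [ENNReal.ofReal_mul (by norm_num)]
      exact mul_le_mul_right h7 _
    · refine lt_of_le_of_lt h5 (lt_of_lt_of_le ?_ (mul_le_mul_right h7 _))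
      have e : (1 / 2 : ENNReal) = ENNReal.ofReal (1 / 2) := by
        rw [ENNReal.ofReal_div_of_pos (by norm_num)]; simp
      rw [e, ← ENNReal.ofReal_mul (by norm_num), ENNReal.ofReal_lt_ofReal_iff (by positivity)]
      exact mul_lt_mul_of_pos_right (by norm_num) hX

theorem result :
    (¬ ∀ (K : Set (EuclideanSpace ℝ (Fin 3))), IsConvexBody K →
      ∀ (m : ℕ) (u : Fin m → EuclideanSpace ℝ (Fin 3))
        (B : Fin m → Set (EuclideanSpace ℝ (Fin 3))), IsCylinderCover K m u B →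
        1 / 2 * minProjArea K ≤ ∑ i, Measure.euclideanHausdorffMeasure 2 (B i)) ∧
    (¬ ∀ (K : Set (EuclideanSpace ℝ (Fin 3))), IsConvexBody K →
      ∀ (m : ℕ) (u : Fin m → EuclideanSpace ℝ (Fin 3))
        (B : Fin m → Set (EuclideanSpace ℝ (Fin 3))), IsCylinderCover K m u B →
        1 / 2 ≤ ∑ i, Measure.euclideanHausdorffMeasure 2 (B i) / projArea K (u i)) ∧
    (∀ (p : Fin 4 → EuclideanSpace ℝ (Fin 3)), AffineIndependent ℝ p →
      IsConvexBody (convexHull ℝ (range p)) ∧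
      (∀ v, ‖v‖ = 1 → projArea (convexHull ℝ (range p)) v < ⊤) ∧
      ∃ (m : ℕ) (u : Fin m → EuclideanSpace ℝ (Fin 3))
        (B : Fin m → Set (EuclideanSpace ℝ (Fin 3))),
        IsCylinderCover (convexHull ℝ (range p)) m u B ∧ (∀ i, IsCompact (B i)) ∧
        ∑ i, Measure.euclideanHausdorffMeasure 2 (B i) / projArea (convexHull ℝ (range p)) (u i)
          ≤ ENNReal.ofReal (1 / 2 - 1 / 10 ^ 6) ∧
        ((∀ i j k l, i ≠ j → k ≠ l → dist (p i) (p j) = dist (p k) (p l)) →
          ∑ i, Measure.euclideanHausdorffMeasure 2 (B i)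
            ≤ ENNReal.ofReal (1 / 2 - 1 / 10 ^ 6) * minProjArea (convexHull ℝ (range p)) ∧
          ∑ i, Measure.euclideanHausdorffMeasure 2 (B i)
            < 1 / 2 * minProjArea (convexHull ℝ (range p)))) := by
  obtain ⟨hK, -, m, u, B, hc, -, h3, h4⟩ :=
    tetra Vale.Agent.P243.reg Vale.Agent.P243.reg_affineIndependent
  refine ⟨fun h => ?_, fun h => ?_, tetra⟩
  · have h5 := (h4 fun i j k l hij hkl => by
      rw [Vale.Agent.P243.reg_dist i j hij, Vale.Agent.P243.reg_dist k l hkl]).2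
    exact absurd (h _ hK m u B hc) (not_le.2 h5)
  · have h5 := le_trans (h _ hK m u B hc) h3
    have e : (1 / 2 : ENNReal) = ENNReal.ofReal (1 / 2) := by
      rw [ENNReal.ofReal_div_of_pos (by norm_num)]; simp
    rw [e, ENNReal.ofReal_le_ofReal_iff (by norm_num)] at h5
    norm_num at h5

end Vale.Agent.Results.P243.Tetrahedron
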